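import Vale.Agent.Lib.P154Anti.Cert.D10.Table0
import Vale.Agent.Lib.P154Anti.Cert.D10.Masses

namespace Vale.Agent.Lib.P154Anti.Cert.D10

open Vale.Agent.Lib.P154Anti

theorem L0 : lvlOK3 cfg par tblI0 tblE0 vE vc Q0 0 Q1 = true := by decide +kernel

theorem L1 : lvlOK3 cfg par tblI0 tblE0 vE vc Q1 17591833639550 Q2 = true := by decide +kernel

theorem L2 : lvlOK3 cfg par tblI0 tblE0 vE vc Q2 17590234827156 Q3 = true := by decide +kernel

theorem L3 : lvlOK3 cfg par tblI0 tblE0 vE vc Q3 17590947291345 Q4 = true := by decide +kernel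

theorem L4 : lvlOK3 cfg par tblI0 tblE0 vE vc Q4 17590622314529 Q5 = true := by decide +kernel

theorem L5 : lvlOK3 cfg par tblI0 tblE0 vE vc Q5 17591073745969 Q6 = true := by decide +kernel

theorem L6 : lvlOK3 cfg par tblI0 tblE0 vE vc Q6 17590722462008 Q7 = true := by decide +kernel

theorem L7 : lvlOK3 cfg par tblI0 tblE0 vE vc Q7 17590765998483 Q8 = true := by decide +kernel

theorem L8 : lvlOK3 cfg par tblI0 tblE0 vE vc Q8 17590917891390 Q9 = true := by decide +kernel

theorem L9 : lvlOK3 cfg par tblI0 tblE0 vE vc Q9 17590829173252 Q10 = true := by decide +kernel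

end Vale.Agent.Lib.P154Anti.Cert.D10
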