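import Vale.Agent.Lib.P154Anti.Cert.D10.Table0
import Vale.Agent.Lib.P154Anti.Cert.D10.Masses

namespace Vale.Agent.Lib.P154Anti.Cert.D10

open Vale.Agent.Lib.P154Anti

theorem L10 : lvlOK3 cfg par tblI0 tblE0 vE vc Q10 17590713129843 Q11 = true := by decide +kernel

theorem L11 : lvlOK3 cfg par tblI0 tblE0 vE vc Q11 17590841252471 Q12 = true := by decide +kernel

theorem L12 : lvlOK3 cfg par tblI0 tblE0 vE vc Q12 17590720110746 Q13 = true := by decide +kernel

theorem L13 : lvlOK3 cfg par tblI0 tblE0 vE vc Q13 17590811766386 Q14 = true := by decide +kernel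

theorem L14 : lvlOK3 cfg par tblI0 tblE0 vE vc Q14 17591185056910 Q15 = true := by decide +kernel

theorem L15 : lvlOK3 cfg par tblI0 tblE0 vE vc Q15 17590936781688 Q16 = true := by decide +kernel

theorem L16 : lvlOK3 cfg par tblI0 tblE0 vE vc Q16 17590883811129 Q17 = true := by decide +kernel

theorem L17 : lvlOK3 cfg par tblI0 tblE0 vE vc Q17 17590706254457 Q18 = true := by decide +kernel

theorem L18 : lvlOK3 cfg par tblI0 tblE0 vE vc Q18 17591007177082 Q19 = true := by decide +kernel

theorem L19 : lvlOK3 cfg par tblI0 tblE0 vE vc Q19 17590820834193 Q20 = true := by decide +kernel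

end Vale.Agent.Lib.P154Anti.Cert.D10
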