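import Vale.Agent.Lib.P154Anti.Cert.D10.Table0
import Vale.Agent.Lib.P154Anti.Cert.D10.Masses

namespace Vale.Agent.Lib.P154Anti.Cert.D10

open Vale.Agent.Lib.P154Anti

theorem L20 : lvlOK3 cfg par tblI0 tblE0 vE vc Q20 17591153649567 Q21 = true := by decide +kernel

theorem L21 : lvlOK3 cfg par tblI0 tblE0 vE vc Q21 17590862023162 Q22 = true := by decide +kernel

theorem L22 : lvlOK3 cfg par tblI0 tblE0 vE vc Q22 17590817818285 Q23 = true := by decide +kernel

theorem L23 : lvlOK3 cfg par tblI0 tblE0 vE vc Q23 17590985732936 Q24 = true := by decide +kernel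

theorem L24 : lvlOK3 cfg par tblI0 tblE0 vE vc Q24 17590933001565 Q25 = true := by decide +kernel

theorem L25 : lvlOK3 cfg par tblI0 tblE0 vE vc Q25 17590921487607 Q26 = true := by decide +kernel

theorem L26 : lvlOK3 cfg par tblI0 tblE0 vE vc Q26 17590905428374 Q27 = true := by decide +kernel

theorem L27 : lvlOK3 cfg par tblI0 tblE0 vE vc Q27 17590926887600 Q28 = true := by decide +kernel

theorem L28 : lvlOK3 cfg par tblI0 tblE0 vE vc Q28 17591005299842 Q29 = true := by decide +kernel

theorem L29 : lvlOK3 cfg par tblI0 tblE0 vE vc Q29 17590957467210 Q30 = true := by decide +kernel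

end Vale.Agent.Lib.P154Anti.Cert.D10
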