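import Vale.Agent.Lib.P154Anti.Cert.D10.Table0
import Vale.Agent.Lib.P154Anti.Cert.D10.Masses

namespace Vale.Agent.Lib.P154Anti.Cert.D10

open Vale.Agent.Lib.P154Anti

theorem L30 : lvlOK3 cfg par tblI0 tblE0 vE vc Q30 17590826731331 Q31 = true := by decide +kernel

theorem L31 : lvlOK3 cfg par tblI0 tblE0 vE vc Q31 17590824594747 Q32 = true := by decide +kernel

theorem L32 : lvlOK3 cfg par tblI0 tblE0 vE vc Q32 17591112242922 Q33 = true := by decide +kernel

theorem L33 : lvlOK3 cfg par tblI0 tblE0 vE vc Q33 17590930782397 Q34 = true := by decide +kernel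

theorem L34 : lvlOK3 cfg par tblI0 tblE0 vE vc Q34 17591093914004 Q35 = true := by decide +kernel

theorem L35 : lvlOK3 cfg par tblI0 tblE0 vE vc Q35 17591104229149 Q36 = true := by decide +kernel

theorem L36 : lvlOK3 cfg par tblI0 tblE0 vE vc Q36 17591113546228 Q37 = true := by decide +kernel

theorem L37 : lvlOK3 cfg par tblI0 tblE0 vE vc Q37 17590946541788 Q38 = true := by decide +kernel

theorem L38 : lvlOK3 cfg par tblI0 tblE0 vE vc Q38 17591058797342 Q39 = true := by decide +kernel

theorem L39 : lvlOK3 cfg par tblI0 tblE0 vE vc Q39 17590922727266 Q40 = true := by decide +kernel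

end Vale.Agent.Lib.P154Anti.Cert.D10
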