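import Vale.Agent.Lib.P154Anti.Cert.D10.Table0
import Vale.Agent.Lib.P154Anti.Cert.D10.Masses

namespace Vale.Agent.Lib.P154Anti.Cert.D10

open Vale.Agent.Lib.P154Anti

theorem L50 : lvlOK3 cfg par tblI0 tblE0 vE vc Q50 17591097963820 Q51 = true := by decide +kernel

theorem L51 : lvlOK3 cfg par tblI0 tblE0 vE vc Q51 17590817063469 Q52 = true := by decide +kernel

theorem L52 : lvlOK3 cfg par tblI0 tblE0 vE vc Q52 17590989162788 Q53 = true := by decide +kernel

theorem L53 : lvlOK3 cfg par tblI0 tblE0 vE vc Q53 17590878362794 Q54 = true := by decide +kernel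

theorem L54 : lvlOK3 cfg par tblI0 tblE0 vE vc Q54 17591093440974 Q55 = true := by decide +kernel

theorem L55 : lvlOK3 cfg par tblI0 tblE0 vE vc Q55 17590882116661 Q56 = true := by decide +kernel

theorem L56 : lvlOK3 cfg par tblI0 tblE0 vE vc Q56 17590764116320 Q57 = true := by decide +kernel

theorem L57 : lvlOK3 cfg par tblI0 tblE0 vE vc Q57 17591010013964 Q58 = true := by decide +kernel

theorem L58 : lvlOK3 cfg par tblI0 tblE0 vE vc Q58 17591089218672 Q59 = true := by decide +kernel

theorem L59 : lvlOK3 cfg par tblI0 tblE0 vE vc Q59 17590918187521 Q60 = true := by decide +kernel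

end Vale.Agent.Lib.P154Anti.Cert.D10
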