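import Vale.Agent.Lib.P154Anti.Cert.D10.Table0
import Vale.Agent.Lib.P154Anti.Cert.D10.Masses

namespace Vale.Agent.Lib.P154Anti.Cert.D10

open Vale.Agent.Lib.P154Anti

theorem L60 : lvlOK3 cfg par tblI0 tblE0 vE vc Q60 17591002170486 Q61 = true := by decide +kernel

theorem L61 : lvlOK3 cfg par tblI0 tblE0 vE vc Q61 17590920281191 Q62 = true := by decide +kernel

theorem L62 : lvlOK3 cfg par tblI0 tblE0 vE vc Q62 17591068635962 Q63 = true := by decide +kernel

theorem L63 : lvlOK3 cfg par tblI0 tblE0 vE vc Q63 17591138387467 Q64 = true := by decide +kernel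

theorem L64 : lvlOK3 cfg par tblI0 tblE0 vE vc Q64 17591032760869 Q65 = true := by decide +kernel

theorem L65 : lvlOK3 cfg par tblI0 tblE0 vE vc Q65 17591205409952 Q66 = true := by decide +kernel

theorem L66 : lvlOK3 cfg par tblI0 tblE0 vE vc Q66 17591078137546 Q67 = true := by decide +kernel

theorem L67 : lvlOK3 cfg par tblI0 tblE0 vE vc Q67 17591203978352 Q68 = true := by decide +kernel

end Vale.Agent.Lib.P154Anti.Cert.D10
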